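import Vale.Agent.P109.Tor

namespace Vale.Agent.P109

open MeasureTheory Filter Topology

theorem bad_coe (Q : ℕ) (x : UnitAddCircle) :
    (((Q : ℝ) * rp x : ℝ) : UnitAddCircle) = (Q : ℤ) • x := by
  conv_rhs => rw [← coe_rp x]
  rw [← AddCircle.coe_zsmul, zsmul_eq_mul, Int.cast_natCast]

theorem bad_set (Q : ℕ) (ε : ℝ) : {x : UnitAddCircle | ¬Gd ε (Q * rp x)} =
    (fun x : UnitAddCircle => (Q : ℤ) • x) ⁻¹' Metric.closedBall 0 ε := by
  ext x
  simp only [Gd, bad_coe, not_lt, Set.mem_ofPred_eq, Set.mem_preimage, mem_closedBall_zero_iff]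

theorem bad_meas (Q : ℕ) (ε : ℝ) : MeasurableSet {x : UnitAddCircle | ¬Gd ε (Q * rp x)} := by
  rw [bad_set]
  exact (continuous_zsmul (Q : ℤ)).measurable measurableSet_closedBall

theorem vol_bad {Q : ℕ} (hQ : 0 < Q) (ε : ℝ) :
    volume {x : UnitAddCircle | ¬Gd ε (Q * rp x)} ≤ ENNReal.ofReal (2 * ε) := by
  have hm := MeasureTheory.Measure.measurePreserving_zsmul (volume : Measure UnitAddCircle)
    (n := (Q : ℤ)) (by exact_mod_cast hQ.ne')
  rw [bad_set, hm.measure_preimage measurableSet_closedBall.nullMeasurableSet,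
    AddCircle.volume_closedBall]
  exact ENNReal.ofReal_le_ofReal (min_le_right _ _)

theorem bad_compl (Q : ℕ → ℕ) (K' : ℕ → Pl → Pl) (j : ℕ) : (Good Q K' j)ᶜ =
    (Prod.fst ∘ desc (K' (j + 1))) ⁻¹' {x | ¬Gd ((1 / 2) ^ j) (Q (j + 1) * rp x)} ∪
      ((Prod.snd ∘ desc (K' (j + 1))) ⁻¹' {x | ¬Gd ((1 / 2) ^ j) (Q j * rp x)} ∪
        (Prod.snd ∘ desc (K' (j + 1))) ⁻¹' {x | ¬Gd ((1 / 2) ^ j) ((1 : ℕ) * rp x)}) := by
  ext p
  simp only [Good, Set.mem_compl_iff, Set.mem_ofPred_eq, Set.mem_union, Set.mem_preimage,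
    Function.comp, Nat.cast_one, one_mul, not_and_or]

theorem meas_good {Q : ℕ → ℕ} {K K' G : ℕ → Pl → Pl} (h : SeqD Q K K' G) (j : ℕ) :
    MeasurableSet (Good Q K' j) := by
  have hm := (h.dd (j + 1)).mp'.measurable
  rw [← MeasurableSet.compl_iff, bad_compl]
  exact ((measurable_fst.comp hm) (bad_meas _ _)).union
    (((measurable_snd.comp hm) (bad_meas _ _)).union ((measurable_snd.comp hm) (bad_meas _ _)))

theorem bad_vol {Q : ℕ → ℕ} {K K' G : ℕ → Pl → Pl} (h : SeqD Q K K' G) (j : ℕ) :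
    volume (Good Q K' j)ᶜ ≤ ENNReal.ofReal (6 * (1 / 2) ^ j) := by
  have hm := (h.dd (j + 1)).mp'
  have : IsProbabilityMeasure (volume : Measure UnitAddCircle) := ⟨UnitAddCircle.measure_univ⟩
  have f1 : MeasurePreserving (Prod.fst : T2 → UnitAddCircle) volume volume :=
    measurePreserving_fst
  have f2 : MeasurePreserving (Prod.snd : T2 → UnitAddCircle) volume volume :=
    measurePreserving_snd
  have e : ENNReal.ofReal (6 * (1 / 2) ^ j) = ENNReal.ofReal (2 * (1 / 2) ^ j) +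
      (ENNReal.ofReal (2 * (1 / 2) ^ j) + ENNReal.ofReal (2 * (1 / 2) ^ j)) := by
    rw [← ENNReal.ofReal_add (by positivity) (by positivity),
      ← ENNReal.ofReal_add (by positivity) (by positivity)]
    congr 1
    ring
  rw [bad_compl, e]
  refine (measure_union_le _ _).trans (add_le_add ?_ ((measure_union_le _ _).trans
    (add_le_add ?_ ?_)))
  · rw [(f1.comp hm).measure_preimage (bad_meas _ _).nullMeasurableSet]
    exact vol_bad (h.pos _) _
  · rw [(f2.comp hm).measure_preimage (bad_meas _ _).nullMeasurableSet]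
    exact vol_bad (h.pos _) _
  · rw [(f2.comp hm).measure_preimage (bad_meas _ _).nullMeasurableSet]
    exact vol_bad one_pos _

theorem good_ae {Q : ℕ → ℕ} {K K' G : ℕ → Pl → Pl} (h : SeqD Q K K' G) :
    ∀ᵐ p : T2, ∀ᶠ j in atTop, p ∈ Good Q K' j := by
  have hs : Summable fun j : ℕ => (6 : ℝ) * (1 / 2) ^ j := summable_geometric_two.mul_left 6
  have hne : (∑' j, volume (Good Q K' j)ᶜ) ≠ ⊤ := by
    refine ne_top_of_le_ne_top ?_ (ENNReal.tsum_le_tsum (bad_vol h))
    rw [← ENNReal.ofReal_tsum_of_nonneg (fun j => by positivity) hs]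
    exact ENNReal.ofReal_ne_top
  filter_upwards [ae_eventually_notMem hne] with p hp
  exact hp.mono fun j hj => not_not.1 hj

end Vale.Agent.P109
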