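import Vale.Agent.P109.Tor

namespace Vale.Agent.P109

open MeasureTheory Filter Topology

theorem close_sl {F : ℝ × Pl → Pl} (hF : ContDiff ℝ (⊤ : ℕ∞) F) (k : ℕ) (t : ℝ) (z : Pl) :
    iteratedFDeriv ℝ k (fun z => F (t, z)) z = (iteratedFDeriv ℝ k F (t, z)).compContinuousLinearMap
      fun _ => ContinuousLinearMap.inr ℝ ℝ Pl := by
  have e : (fun z => F (t, z)) = (fun y => F ((t, 0) + y)) ∘ ContinuousLinearMap.inr ℝ ℝ Pl := by
    funext z; simp
  rw [e, ContinuousLinearMap.iteratedFDeriv_comp_right _ (n := (⊤ : ℕ∞))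
    (f := fun y => F ((t, 0) + y))
    (hF.comp (contDiff_const.add contDiff_id)) z (by exact_mod_cast le_top),
    iteratedFDeriv_comp_add_left]
  simp

theorem close {K K' : Pl → Pl} (h : DD K K') (w : Pl) (r : ℕ) {δ : ℝ} (hδ : 0 < δ) :
    ∀ᶠ t in 𝓝 (0 : ℝ), Small r δ fun z => cj K K' (w + (0, t)) z - cj K K' w z := by
  let F : ℝ × Pl → Pl := fun p => cj K K' (w + (0, p.1)) p.2 - cj K K' w p.2
  have hF : ContDiff ℝ (⊤ : ℕ∞) F :=
    (h.sm.comp ((h.sm'.comp contDiff_snd).add
      (contDiff_const.add (contDiff_const.prodMk contDiff_fst)))).sub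
      (h.sm.comp ((h.sm'.comp contDiff_snd).add contDiff_const))
  refine (eventually_all_finite (Set.finite_le_nat r)).2 fun k _ => ?_
  have c1 : Continuous fun p : ℝ × Pl => iteratedFDeriv ℝ k (fun z => F (p.1, z)) p.2 := by
    simp only [close_sl hF]
    exact (ContinuousMultilinearMap.compContinuousLinearMapL
      (fun _ : Fin k => ContinuousLinearMap.inr ℝ ℝ Pl)).continuous.comp
      (hF.continuous_iteratedFDeriv (by exact_mod_cast le_top))
  have c2 : ∀ᶠ t in 𝓝 (0 : ℝ), ∀ z ∈ Set.Icc (0 : ℝ) 1 ×ˢ Set.Icc (0 : ℝ) 1,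
      ‖iteratedFDeriv ℝ k (fun z => F (t, z)) z‖ ≤ δ := by
    refine (isCompact_Icc.prod isCompact_Icc).eventually_forall_of_forall_eventually fun z _ => ?_
    refine (c1.norm.continuousAt.eventually_lt continuousAt_const ?_).mono fun p hp => le_of_lt hp
    have : (fun z => F (0, z)) = fun _ => 0 := by
      funext z; simp [F, Prod.mk_zero_zero]
    simp only [this]
    simpa using hδ
  refine c2.mono fun t ht z => ?_
  have e : z = (Int.fract z.1, Int.fract z.2) + iv (⌊z.1⌋, ⌊z.2⌋) := by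
    ext <;> simp [iv]
  have p : (fun y => F (t, y + iv (⌊z.1⌋, ⌊z.2⌋))) = fun y => F (t, y) := by
    funext y
    simp only [F, per_cj h _ _ y, add_sub_add_right_eq_sub]
  have := ht (Int.fract z.1, Int.fract z.2)
    ⟨⟨Int.fract_nonneg _, (Int.fract_lt_one _).le⟩, Int.fract_nonneg _, (Int.fract_lt_one _).le⟩
  rw [← p, iteratedFDeriv_comp_add_right (f := fun y => F (t, y)), ← e] at this
  exact this

end Vale.Agent.P109
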