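import Vale.Agent.P109.St

/-! Internal definitions for P109. -/

namespace Vale.Agent.P109

open MeasureTheory

abbrev Pl := ℝ × ℝ

def iv (m : ℤ × ℤ) : Pl := ((m.1 : ℝ), (m.2 : ℝ))

/-- the map descends to the torus -/
def Eqv (K : Pl → Pl) : Prop := ∀ m : ℤ × ℤ, ∃ m' : ℤ × ℤ, ∀ z, K (z + iv m) = K z + iv m'

/-- the map commutes with the integer translations -/
def Per (f : Pl → Pl) : Prop := ∀ (m : ℤ × ℤ) (z : Pl), f (z + iv m) = f z + iv m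

/-- representative in `[0, 1)` -/
noncomputable def rp (x : UnitAddCircle) : ℝ := (AddCircle.equivIco 1 0 x : ℝ)

/-- the induced map of the torus -/
noncomputable def desc (K : Pl → Pl) (p : T2) : T2 := pr (K (rp p.1, rp p.2))

/-- a pair of mutually inverse lifts of area preserving diffeomorphisms of the torus -/
structure DD (K K' : Pl → Pl) : Prop where
  sm : ContDiff ℝ (⊤ : ℕ∞) K
  sm' : ContDiff ℝ (⊤ : ℕ∞) K'
  eqv : Eqv K
  eqv' : Eqv K'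
  li : ∀ z, K' (K z) = z
  ri : ∀ z, K (K' z) = z
  mp : MeasurePreserving (desc K) volume volume
  mp' : MeasurePreserving (desc K') volume volume

/-- the conjugate of a translation -/
def cj (K K' : Pl → Pl) (w : Pl) (z : Pl) : Pl := K (K' z + w)

/-- away from the integers -/
def Gd (ε : ℝ) (t : ℝ) : Prop := ε < ‖(t : UnitAddCircle)‖

/-- the properties of the new conjugacy -/
structure GSpec (P Q : ℕ) (ε : ℝ) (G : Pl → Pl) : Prop where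
  eqv : Eqv G
  tr : ∀ z, G (z + (1 / (Q : ℝ), 0)) = G z + (1 / (P : ℝ), 1 / (Q : ℝ))
  val : ∀ x y : ℝ, Gd ε (Q * x) → Gd ε (P * y) → Gd ε y → 0 ≤ y → y < 1 →
    G (x, y) = (y + ((⌊Q * x⌋ : ℝ) - ⌊P * y⌋) / P, x - (⌊P * y⌋ : ℝ) / Q)

/-- all derivatives of order at most `r` are bounded by `δ` -/
def Small (r : ℕ) (δ : ℝ) (u : Pl → Pl) : Prop := ∀ k ≤ r, ∀ z, ‖iteratedFDeriv ℝ k u z‖ ≤ δ

/-- the data of the approximation by conjugation scheme -/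
structure SeqD (Q : ℕ → ℕ) (K K' G : ℕ → Pl → Pl) : Prop where
  pos : ∀ j, 0 < Q j
  dvd : ∀ j, Q j ∣ Q (j + 1)
  dd : ∀ j, DD (K j) (K' j)
  succ : ∀ j, K (j + 1) = K j ∘ G j
  gs : ∀ j, GSpec (Q j) (Q (j + 1)) ((1 / 2) ^ j) (G j)
  cl : ∀ j, Small j ((1 / 2) ^ j) fun z =>
    cj (K j) (K' j) (1 / (Q j : ℝ), 1 / (Q (j + 1) : ℝ)) z - cj (K j) (K' j) (1 / (Q j : ℝ), 0) z
  cl' : ∀ j, Small j ((1 / 2) ^ j) fun z =>
    cj (K j) (K' j) (-(1 / (Q j : ℝ), 1 / (Q (j + 1) : ℝ))) z -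
      cj (K j) (K' j) (-(1 / (Q j : ℝ), 0)) z
  uc : ∀ j (a b : T2), dist a b ≤ 2 * Q j / Q (j + 1) →
    dist (desc (K j) a) (desc (K j) b) ≤ (1 / 2) ^ j

/-- the label of the strip -/
noncomputable def lab (Q : ℕ) (K' : Pl → Pl) (p : T2) : ℤ := ⌊Q * rp (desc K' p).1⌋

/-- the good set of the step from `j` to `j + 1` -/
def Good (Q : ℕ → ℕ) (K' : ℕ → Pl → Pl) (j : ℕ) : Set T2 :=
  {p | Gd ((1 / 2) ^ j) (Q (j + 1) * rp (desc (K' (j + 1)) p).1) ∧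
    Gd ((1 / 2) ^ j) (Q j * rp (desc (K' (j + 1)) p).2) ∧
    Gd ((1 / 2) ^ j) (rp (desc (K' (j + 1)) p).2)}

end Vale.Agent.P109
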