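import Vale.Agent.P109.Lab

namespace Vale.Agent.P109

open MeasureTheory Filter Topology

theorem equi_dvd {q : ℕ → ℕ} (hd : ∀ n, q n ∣ q (n + 1)) {i m : ℕ} (h : i ≤ m) : q i ∣ q m := by
  induction m, h using Nat.le_induction with
  | base => exact dvd_rfl
  | succ m _ ih => exact ih.trans (hd m)

theorem phi_equi {q : ℕ → ℕ} (hd : ∀ n, q n ∣ q (n + 1)) {n : ℕ → ℕ} (hn : ∀ j, j ≤ n j)
    {K K' G : ℕ → Pl → Pl} (h : SeqD (fun j => q (n j)) K K' G) {S : T2 → T2} (hc : Continuous S)
    (hm : MeasurePreserving S volume volume) (ht : TendstoUniformly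
      (fun j => desc (cj (K j) (K' j) (1 / (q (n j) : ℝ), 0))) S atTop)
    {Φ : T2 → ∀ i, ZMod (q i)} (hΦ : Measurable Φ)
    (hl : ∀ᵐ p : T2, ∀ i, ∀ᶠ j in atTop, Φ p i = (lab (q (n j)) (K' j) p : ZMod (q i))) :
    ∀ᵐ p : T2, Φ (S p) = Φ p + 1 := by
  have dd := fun j => dd_cj (h.dd j) (1 / (q (n j) : ℝ), 0)
  let Sj : ℕ → C(T2, T2) := fun j =>
    ⟨desc (cj (K j) (K' j) (1 / (q (n j) : ℝ), 0)), cont_desc (dd j).sm.continuous (dd j).eqv⟩
  let S0 : C(T2, T2) := ⟨S, hc⟩
  have hT : Tendsto Sj atTop (𝓝 S0) := ContinuousMap.tendsto_iff_tendstoUniformly.mpr ht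
  have key : ∀ (i : ℕ) (a : ℤ),
      volume {p : T2 | Φ p i + 1 = (a : ZMod (q i)) ∧ Φ (S p) i ≠ (a : ZMod (q i))} = 0 := by
    intro i a
    have mi : Measurable fun p => Φ p i := (measurable_pi_apply i).comp hΦ
    let B : ℕ → Set T2 := fun j => {p | Φ p i ≠ (lab (q (n j)) (K' j) p : ZMod (q i))}
    let E : Set T2 := {p | Φ p i = (a : ZMod (q i))}
    have mE : MeasurableSet E := mi (measurableSet_singleton _)
    have mB : ∀ j, MeasurableSet (B j) := by
      intro j
      have e : B j = ⋃ b : ℤ, (lab (q (n j)) (K' j) ⁻¹' {b}) ∩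
          ((fun p => Φ p i) ⁻¹' {(b : ZMod (q i))})ᶜ := by
        ext p
        simp [B]
      rw [e]
      exact MeasurableSet.iUnion fun b => (meas_lab h j (measurableSet_singleton _)).inter
        (mi (measurableSet_singleton _)).compl
    have tB : Tendsto (fun j => volume (B j)) atTop (𝓝 0) := by
      have := tendsto_measure_of_ae_tendsto_indicator_of_isFiniteMeasure (μ := volume) atTop
        MeasurableSet.empty mB (by
          filter_upwards [hl] with p hp
          filter_upwards [hp i] with j hj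
          simp [B, hj])
      simpa using this
    have tE := tendsto_measure_symmDiff_preimage_nhds_zero (μ := volume) (ν := volume) hT
      (Eventually.of_forall fun j => (dd j).mp) hm mE.nullMeasurableSet (measure_ne_top _ _)
    have tA := (tB.add tB).add tE
    simp only [add_zero] at tA
    refine le_antisymm (ge_of_tendsto tA ?_) zero_le
    filter_upwards [eventually_ge_atTop i] with j hj
    have hsub : {p : T2 | Φ p i + 1 = (a : ZMod (q i)) ∧ Φ (S p) i ≠ (a : ZMod (q i))} ⊆
        B j ∪ Sj j ⁻¹' B j ∪ symmDiff (Sj j ⁻¹' E) (S0 ⁻¹' E) := by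
      intro p hp
      by_cases h1 : p ∈ B j
      · exact Or.inl (Or.inl h1)
      by_cases h2 : Sj j p ∈ B j
      · exact Or.inl (Or.inr h2)
      refine Or.inr (Set.mem_symmDiff.mpr (Or.inl ⟨?_, hp.2⟩))
      have e1 : Φ p i = (lab (q (n j)) (K' j) p : ZMod (q i)) := not_not.mp h1
      have e2 : Φ (Sj j p) i = (lab (q (n j)) (K' j) (Sj j p) : ZMod (q i)) := not_not.mp h2
      have e3 := (lab_step h j p).of_dvd
        (Int.natCast_dvd_natCast.mpr (equi_dvd hd (hj.trans (hn j))))
      have e4 := (ZMod.intCast_eq_intCast_iff _ _ _).mpr e3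
      show Φ (Sj j p) i = (a : ZMod (q i))
      rw [e2, ← hp.1, e1]
      push_cast at e4
      exact e4
    refine (measure_mono hsub).trans ((measure_union_le _ _).trans ?_)
    gcongr
    exact (measure_union_le _ _).trans (add_le_add le_rfl
      ((dd j).mp.measure_preimage (mB j).nullMeasurableSet).le)
  have key2 : ∀ᵐ p : T2, ∀ (i : ℕ) (a : ℤ),
      ¬ (Φ p i + 1 = (a : ZMod (q i)) ∧ Φ (S p) i ≠ (a : ZMod (q i))) := by
    rw [ae_all_iff]
    intro i
    rw [ae_all_iff]
    intro a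
    exact measure_eq_zero_iff_ae_notMem.mp (key i a)
  filter_upwards [key2] with p hp
  funext i
  obtain ⟨a, ha⟩ := ZMod.intCast_surjective (Φ p i + 1)
  by_contra hne
  exact hp i a ⟨ha.symm, fun e => hne (e.trans ha)⟩

end Vale.Agent.P109
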