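import Vale.Agent.P109.Defs

namespace Vale.Agent.P109

open MeasureTheory Filter Topology

theorem exists_stair {ε : ℝ} (hε : 0 < ε) : ∃ σ : ℝ → ℝ, ContDiff ℝ (⊤ : ℕ∞) σ ∧
    (∀ t, σ (t + 1) = σ t + 1) ∧ ∀ t, Gd ε t → σ t = ⌊t⌋ := by
  obtain ⟨δ, h0, h1, h2⟩ : ∃ δ : ℝ, 0 < δ ∧ δ < 1 ∧ δ ≤ ε :=
    ⟨min ε (1 / 2), lt_min hε (by norm_num), (min_le_right _ _).trans_lt (by norm_num),
      min_le_left _ _⟩
  have hz : ∀ u : ℝ, u ≤ -δ → Real.smoothTransition (u / δ + 1) = 0 := by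
    intro u hu
    refine Real.smoothTransition.zero_of_nonpos ?_
    have : u / δ ≤ -1 := by rw [div_le_iff₀ h0]; linarith
    linarith
  refine ⟨fun t => ⌊t⌋ + Real.smoothTransition ((t - ⌊t⌋ - 1) / δ + 1), ?_, fun t => ?_,
    fun t ht => ?_⟩
  · rw [contDiff_iff_contDiffAt]
    intro t0
    set m : ℤ := ⌊t0 + δ⌋ with hm
    have a1 : (m : ℝ) ≤ t0 + δ := Int.floor_le _
    have a2 : t0 + δ < m + 1 := Int.lt_floor_add_one _
    have hs : ContDiff ℝ (⊤ : ℕ∞) fun t : ℝ =>
        (m : ℝ) - 1 + Real.smoothTransition ((t - m) / δ + 1) :=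
      contDiff_const.add (Real.smoothTransition.contDiff.comp
        (((contDiff_id.sub contDiff_const).div_const δ).add contDiff_const))
    refine hs.contDiffAt.congr_of_eventuallyEq ?_
    filter_upwards [Ioo_mem_nhds (show (m : ℝ) - 1 < t0 by linarith)
      (show t0 < m + 1 - δ by linarith)] with t ht
    obtain ⟨b1, b2⟩ := ht
    by_cases hc : t < m
    · have : ⌊t⌋ = m - 1 := Int.floor_eq_iff.2 ⟨by push_cast; linarith, by push_cast; linarith⟩
      rw [this]
      push_cast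
      congr 4
      ring
    · push Not at hc
      have : ⌊t⌋ = m := Int.floor_eq_iff.2 ⟨hc, by linarith⟩
      rw [this, hz _ (by linarith), Real.smoothTransition.one_of_one_le]
      · ring
      · have : 0 ≤ (t - m) / δ := div_nonneg (by linarith) h0.le
        linarith
  · simp only [Int.floor_add_one]
    push_cast
    rw [show t + 1 - (⌊t⌋ + 1) - 1 = t - ⌊t⌋ - 1 by ring]
    ring
  · have h3 : ε < |t - round t| := by
      have := ht
      rwa [Gd, UnitAddCircle.norm_eq] at this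
    have h4 := round_le t (⌊t⌋ + 1)
    have h5 := Int.lt_floor_add_one t
    push_cast at h4
    rw [abs_of_neg (by linarith : t - (⌊t⌋ + 1) < 0)] at h4
    show (⌊t⌋ : ℝ) + Real.smoothTransition ((t - ⌊t⌋ - 1) / δ + 1) = ⌊t⌋
    rw [hz _ (by linarith), add_zero]

end Vale.Agent.P109
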