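import Vale.Agent.P109.Shear
import Vale.Agent.P109.Stair

namespace Vale.Agent.P109

open MeasureTheory Filter Topology

theorem gmap_int {σ : ℝ → ℝ} (h : ∀ t, σ (t + 1) = σ t + 1) (m : ℤ) :
    ∀ t, σ (t + m) = σ t + m := by
  induction m using Int.induction_on with
  | zero => simp
  | succ n ih =>
    intro t
    push_cast at ih ⊢
    rw [← add_assoc, h, ih, add_assoc]
  | pred n ih =>
    intro t
    push_cast at ih ⊢
    have h1 := h (t + (-n - 1))
    rw [show t + (-n - 1) + 1 = t + -n by ring, ih] at h1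
    linarith

theorem exists_G {P Q : ℕ} (hP : 0 < P) (hQ : 0 < Q) (h : P ∣ Q) {ε : ℝ} (hε : 0 < ε) :
    ∃ G G', DD G G' ∧ GSpec P Q ε G := by
  obtain ⟨σ, s1, s2, s3⟩ := exists_stair hε
  obtain ⟨k, hk⟩ := h
  have hP' : (P : ℝ) ≠ 0 := Nat.cast_ne_zero.2 hP.ne'
  have hQ' : (Q : ℝ) ≠ 0 := Nat.cast_ne_zero.2 hQ.ne'
  have sn : ∀ (m : ℕ) t, σ (t + m) = σ t + m := fun m t => by
    simpa using gmap_int s2 m t
  have d0 := dd_shear (c := fun _ => 0) contDiff_const (k := 0) (fun _ => by simp)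
  have da := dd_shear (c := fun y => -((σ (P * y) - P * σ y) / Q)) (by fun_prop) (k := 0)
    (fun y => by rw [mul_add, mul_one, sn, s2]; push_cast; ring)
  have db := dd_shear (c := fun x => σ (Q * x) / P) (by fun_prop) (k := k)
    (fun x => by
      rw [mul_add, mul_one, sn, add_div]
      congr 1
      rw [hk]
      push_cast
      field_simp)
  have dd := db.comp (da.comp d0)
  refine ⟨_, _, dd, dd.eqv, fun z => ?_, fun x y h1 h2 h3 h4 h5 => ?_⟩
  · simp only [Function.comp, Prod.fst_add, Prod.snd_add, add_zero, Prod.mk_add_mk]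
    have e : (Q : ℝ) * (z.1 + 1 / Q + -((σ (P * z.2) - P * σ z.2) / Q)) =
        Q * (z.1 + -((σ (P * z.2) - P * σ z.2) / Q)) + 1 := by
      field_simp
      ring
    rw [e, s2]
    exact Prod.ext (by simp only; ring) (by simp only; ring)
  · simp only [Function.comp, add_zero]
    have f0 : ⌊y⌋ = 0 := Int.floor_eq_zero_iff.2 ⟨h4, h5⟩
    rw [s3 _ h2, s3 _ h3, f0]
    have e : (Q : ℝ) * (x + -(((⌊P * y⌋ : ℝ) - P * ((0 : ℤ) : ℝ)) / Q)) =
        Q * x + ((-⌊P * y⌋ : ℤ) : ℝ) := by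
      push_cast
      field_simp
      ring
    rw [e, gmap_int s2, s3 _ h1]
    exact Prod.ext (by simp only; push_cast; ring) (by simp only; push_cast; ring)

end Vale.Agent.P109
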