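import Vale.Agent.P109.Tor

namespace Vale.Agent.P109

open MeasureTheory Filter Topology

theorem Inj_fl {Q : ℕ} (hQ : 0 < Q) (x : UnitAddCircle) :
    0 ≤ ⌊Q * rp x⌋ ∧ ⌊Q * rp x⌋ < Q := by
  have h : (0 : ℝ) < Q := by exact_mod_cast hQ
  refine ⟨Int.floor_nonneg.mpr (mul_nonneg h.le (rp_nonneg x)), Int.floor_lt.mpr ?_⟩
  simpa [h] using rp_lt x

theorem Inj_close {Q : ℕ} (hQ : 0 < Q) {x x' : ℝ} (h : ⌊Q * x⌋ = ⌊Q * x'⌋) :
    |x - x'| ≤ 1 / Q := by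
  have h0 : (0 : ℝ) < Q := by exact_mod_cast hQ
  have := Int.abs_sub_lt_one_of_floor_eq_floor h
  rw [← mul_sub, abs_mul, abs_of_pos h0] at this
  rw [le_div_iff₀ h0]
  linarith

theorem lab_inj {Q : ℕ → ℕ} {K K' G : ℕ → Pl → Pl} (h : SeqD Q K K' G) {N : ℕ} {p p' : T2}
    (hp : ∀ j ≥ N, p ∈ Good Q K' j) (hp' : ∀ j ≥ N, p' ∈ Good Q K' j)
    (he : ∀ j ≥ N, lab (Q j) (K' j) p ≡ lab (Q j) (K' j) p' [ZMOD (Q j)]) : p = p' := by
  have hQ : ∀ j, (1 : ℝ) ≤ Q j := fun j => by exact_mod_cast h.pos j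
  have e1 : ∀ j ≥ N, ⌊Q j * rp (desc (K' j) p).1⌋ = ⌊Q j * rp (desc (K' j) p').1⌋ := fun j hj => by
    have := he j hj
    rwa [Int.ModEq, lab, lab, Int.emod_eq_of_lt (Inj_fl (h.pos j) _).1 (Inj_fl (h.pos j) _).2,
      Int.emod_eq_of_lt (Inj_fl (h.pos j) _).1 (Inj_fl (h.pos j) _).2] at this
  have e2 : ∀ j a, desc (K (j + 1)) a = desc (K j) (pr (G j (rp a.1, rp a.2))) := fun j a => by
    rw [h.succ, desc_comp (h.dd j).eqv]
    rfl
  have e3 : ∀ j, ∀ s ∈ Good Q K' j, (desc (K' j) s).2 = ((rp (desc (K' (j + 1)) s).1 -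
      (⌊Q j * rp (desc (K' (j + 1)) s).2⌋ : ℝ) / Q (j + 1) : ℝ) : UnitAddCircle) := fun j s hs => by
    conv_lhs => rw [← (h.dd (j + 1)).desc_ri s, e2, (h.dd j).desc_li,
      (h.gs j).val _ _ hs.1 hs.2.1 hs.2.2 (rp_nonneg _) (rp_lt _)]
    rfl
  have e4 : ∀ j ≥ N, dist (desc (K' j) p).2 (desc (K' j) p').2 ≤ 2 * Q j / Q (j + 1) := by
    intro j hj
    have h1 := abs_le.mp (Inj_close (h.pos _) (e1 (j + 1) (by omega)))
    obtain ⟨a1, a2⟩ := Inj_fl (h.pos j) (desc (K' (j + 1)) p).2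
    obtain ⟨b1, b2⟩ := Inj_fl (h.pos j) (desc (K' (j + 1)) p').2
    rw [e3 j p (hp j hj), e3 j p' (hp' j hj)]
    generalize ⌊Q j * rp (desc (K' (j + 1)) p).2⌋ = m at a1 a2
    generalize ⌊Q j * rp (desc (K' (j + 1)) p').2⌋ = m' at b1 b2
    refine (le_max_right _ _).trans ((dist_pr_le (0, _) (0, _)).trans ?_)
    rw [dist_prod_same_left, Real.dist_eq, abs_le]
    have c1 : (0 : ℝ) ≤ m := by exact_mod_cast a1
    have c2 : (m : ℝ) ≤ Q j := by exact_mod_cast a2.le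
    have c3 : (0 : ℝ) ≤ m' := by exact_mod_cast b1
    have c4 : (m' : ℝ) ≤ Q j := by exact_mod_cast b2.le
    have c5 : (0 : ℝ) ≤ (Q (j + 1) : ℝ)⁻¹ := by positivity
    simp only [div_eq_mul_inv] at h1 ⊢
    constructor <;> nlinarith [mul_le_mul_of_nonneg_right (hQ j) c5,
      mul_le_mul_of_nonneg_right c2 c5, mul_le_mul_of_nonneg_right c4 c5, mul_nonneg c1 c5,
      mul_nonneg c3 c5]
  have e5 : ∀ j ≥ N, dist p p' ≤ (1 / 2) ^ (j + 1) + (1 / 2) ^ j := by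
    intro j hj
    have h1 := h.uc (j + 1) (desc (K' (j + 1)) p)
      ((desc (K' (j + 1)) p).1, (desc (K' (j + 1)) p').2)
      ((dist_prod_same_left ..).trans_le (e4 (j + 1) (by omega)))
    have h2 := h.uc j (pr (G j (rp (desc (K' (j + 1)) p).1, rp (desc (K' (j + 1)) p').2)))
      (pr (G j (rp (desc (K' (j + 1)) p').1, rp (desc (K' (j + 1)) p').2)))
      ((dist_pr_le _ _).trans (by
        rw [(h.gs j).val _ _ (hp j hj).1 (hp' j hj).2.1 (hp' j hj).2.2 (rp_nonneg _) (rp_lt _),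
          (h.gs j).val _ _ (hp' j hj).1 (hp' j hj).2.1 (hp' j hj).2.2 (rp_nonneg _) (rp_lt _),
          e1 (j + 1) (by omega), dist_prod_same_left, dist_sub_right, Real.dist_eq]
        refine (Inj_close (h.pos _) (e1 (j + 1) (by omega))).trans ?_
        gcongr
        linarith [hQ j]))
    rw [← e2 j (desc (K' (j + 1)) p'), (h.dd _).desc_ri] at h2
    rw [(h.dd _).desc_ri, e2] at h1
    exact (dist_triangle _ _ _).trans (add_le_add h1 h2)
  have h0 := tendsto_pow_atTop_nhds_zero_of_lt_one (r := (1 / 2 : ℝ)) (by norm_num) (by norm_num)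
  have := ge_of_tendsto ((h0.comp (tendsto_add_atTop_nat 1)).add h0)
    (eventually_atTop.mpr ⟨N, e5⟩)
  exact dist_le_zero.mp (by simpa using this)

end Vale.Agent.P109
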