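import Vale.Agent.P109.Defs

namespace Vale.Agent.P109

open MeasureTheory Filter Topology

theorem iso_core {Y : Type} [MeasurableSpace Y] {ν : Measure Y} (S : Y ≃ᵐ Y)
    (hS : MeasurePreserving S ν ν) {C : Set Y} (hC : ν Cᶜ = 0) :
    ∃ Y₀ : Set Y, MeasurableSet Y₀ ∧ ν Y₀ᶜ = 0 ∧ Y₀ ⊆ C ∧ S ⁻¹' Y₀ = Y₀ := by
  obtain ⟨N, hN1, hN2, hN3⟩ := exists_measurable_superset_of_null hC
  have hS' : MeasurePreserving S.symm ν ν := hS.symm S
  refine ⟨(⋂ n : ℕ, S^[n] ⁻¹' Nᶜ) ∩ ⋂ n : ℕ, S.symm^[n] ⁻¹' Nᶜ, ?_, ?_, ?_, ?_⟩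
  · exact (MeasurableSet.iInter fun n => (hS.iterate n).measurable hN2.compl).inter
      (MeasurableSet.iInter fun n => (hS'.iterate n).measurable hN2.compl)
  · rw [Set.compl_inter, Set.compl_iInter, Set.compl_iInter]
    refine measure_union_null (measure_iUnion_null fun n => ?_) (measure_iUnion_null fun n => ?_)
    · rw [← Set.preimage_compl, compl_compl,
        (hS.iterate n).measure_preimage hN2.nullMeasurableSet, hN3]
    · rw [← Set.preimage_compl, compl_compl,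
        (hS'.iterate n).measure_preimage hN2.nullMeasurableSet, hN3]
  · intro y hy
    have := Set.mem_iInter.1 hy.1 0
    by_contra h
    exact this (hN1 h)
  · ext y
    simp only [Set.mem_preimage, Set.mem_inter_iff, Set.mem_iInter]
    constructor
    · rintro ⟨h1, h2⟩
      have h3 : ∀ n, S.symm^[n] y ∈ Nᶜ := fun n => by
        have := h2 (n + 1)
        rwa [Function.iterate_succ_apply, S.symm_apply_apply] at this
      refine ⟨fun n => ?_, h3⟩
      cases n with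
      | zero => exact h3 0
      | succ n => exact h1 n
    · rintro ⟨h1, h2⟩
      refine ⟨fun n => h1 (n + 1), fun n => ?_⟩
      cases n with
      | zero => exact h1 1
      | succ n =>
        rw [Function.iterate_succ_apply, S.symm_apply_apply]
        exact h2 n

theorem iso_of {X Y : Type} [MeasurableSpace X] [MeasurableSpace.CountablySeparated X]
    [MeasurableSpace Y] [StandardBorelSpace Y] [Nonempty Y] {μ : Measure X} {ν : Measure Y}
    {T : X → X} (hT : Function.Injective T) (S : Y ≃ᵐ Y) (hS : MeasurePreserving S ν ν)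
    {Φ : Y → X} (hΦ : MeasurePreserving Φ ν μ) (he : ∀ᵐ y ∂ν, Φ (S y) = T (Φ y)) {A : Set Y}
    (hA : ν Aᶜ = 0) (hi : Set.InjOn Φ A) : IsoMod μ T ν S := by
  have hC : ν (A ∩ {y | Φ (S y) = T (Φ y)})ᶜ = 0 := by
    rw [Set.compl_inter]
    exact measure_union_null hA he
  obtain ⟨Y₀, m0, n0, s0, i0⟩ := iso_core S hS hC
  have hi0 : Set.InjOn Φ Y₀ := hi.mono fun y hy => (s0 hy).1
  have := m0.standardBorel
  have hemb : MeasurableEmbedding fun y : Y₀ => Φ y :=
    (hΦ.measurable.comp measurable_subtype_coe).measurableEmbedding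
      fun a b h => Subtype.ext (hi0 a.2 b.2 h)
  obtain ⟨F, hF, hFΦ⟩ := hemb.exists_measurable_extend measurable_subtype_coe
    fun _ => inferInstance
  have hFy : ∀ y ∈ Y₀, F (Φ y) = y := fun y hy => congrFun hFΦ ⟨y, hy⟩
  have mX : MeasurableSet (Φ '' Y₀) := m0.image_of_measurable_injOn hΦ.measurable hi0
  have hSy : ∀ y ∈ Y₀, S y ∈ Y₀ := fun y hy => by
    rw [← i0] at hy
    exact hy
  refine ⟨Φ '' Y₀, Y₀, F, Φ, mX, m0, ?_, n0, ?_, i0, hF, hΦ.measurable, ⟨?_, ?_, ?_⟩, ⟨?_, hFy⟩,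
    ?_, ?_⟩
  · rw [← hΦ.measure_preimage mX.compl.nullMeasurableSet]
    exact measure_mono_null (fun y hy hy' => hy ⟨y, hy', rfl⟩) n0
  · ext x
    constructor
    · rintro ⟨y', hy', h⟩
      have hy : S.symm y' ∈ Y₀ := by
        rw [← i0, Set.mem_preimage, S.apply_symm_apply]
        exact hy'
      refine ⟨S.symm y', hy, hT ?_⟩
      have h2 : Φ (S (S.symm y')) = T (Φ (S.symm y')) := (s0 hy).2
      rw [← h2, S.apply_symm_apply, h]
    · rintro ⟨y, hy, rfl⟩
      exact ⟨S y, hSy y hy, (s0 hy).2⟩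
  · rintro _ ⟨y, hy, rfl⟩
    rwa [hFy y hy]
  · rintro _ ⟨y, hy, rfl⟩ _ ⟨y', hy', rfl⟩ h
    rw [hFy y hy, hFy y' hy'] at h
    rw [h]
  · intro y hy
    exact ⟨Φ y, ⟨y, hy, rfl⟩, hFy y hy⟩
  · rintro _ ⟨y, hy, rfl⟩
    rw [hFy y hy]
  · rw [← hΦ.map_eq, Measure.map_map hF hΦ.measurable]
    have : F ∘ Φ =ᵐ[ν] id := by
      filter_upwards [show ∀ᵐ y ∂ν, y ∈ Y₀ from n0] with y hy using hFy y hy
    rw [Measure.map_congr this, Measure.map_id]
  · rintro _ ⟨y, hy, rfl⟩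
    have h2 : Φ (S y) = T (Φ y) := (s0 hy).2
    rw [← h2, hFy y hy, hFy _ (hSy y hy)]

end Vale.Agent.P109
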