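import Vale.Agent.P109.Tor

namespace Vale.Agent.P109

open MeasureTheory Filter Topology

variable {Q : ℕ → ℕ} {K K' G : ℕ → Pl → Pl}

theorem meas_lab (h : SeqD Q K K' G) (j : ℕ) : Measurable (lab (Q j) (K' j)) :=
  Int.measurable_floor.comp (measurable_const.mul
    (meas_rp.comp (measurable_fst.comp (h.dd j).mp'.measurable)))

lemma Lab_inv (h : SeqD Q K K' G) (j : ℕ) (z : Pl) : K' j z = G j (K' (j + 1) z) := by
  have e := (h.dd (j + 1)).ri z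
  rw [h.succ j, Function.comp_apply] at e
  conv_lhs => rw [← e]
  exact (h.dd j).li _

theorem cj_succ (h : SeqD Q K K' G) (j : ℕ) :
    cj (K (j + 1)) (K' (j + 1)) (1 / (Q (j + 1) : ℝ), 0) =
      cj (K j) (K' j) (1 / (Q j : ℝ), 1 / (Q (j + 1) : ℝ)) := by
  funext z
  rw [cj, cj, h.succ j, Function.comp_apply, (h.gs j).tr, ← Lab_inv h]

theorem cj_succ' (h : SeqD Q K K' G) (j : ℕ) :
    cj (K (j + 1)) (K' (j + 1)) (-(1 / (Q (j + 1) : ℝ), 0)) =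
      cj (K j) (K' j) (-(1 / (Q j : ℝ), 1 / (Q (j + 1) : ℝ))) := by
  funext z
  have e := (h.gs j).tr (K' (j + 1) z + -(1 / (Q (j + 1) : ℝ), 0))
  rw [neg_add_cancel_right, ← Lab_inv h] at e
  rw [cj, cj, h.succ j, Function.comp_apply, e, add_neg_cancel_right]

lemma Lab_fract (P : ℕ) (t : ℝ) :
    ⌊(P : ℝ) * rp (t : UnitAddCircle)⌋ ≡ ⌊(P : ℝ) * t⌋ [ZMOD P] := by
  have e : (P : ℝ) * Int.fract t = P * t - ((P * ⌊t⌋ : ℤ) : ℝ) := by
    rw [Int.fract]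
    push_cast
    ring
  rw [rp_coe, e, Int.floor_sub_intCast]
  exact Int.modEq_iff_dvd.mpr ⟨⌊t⌋, by ring⟩

theorem lab_step (h : SeqD Q K K' G) (j : ℕ) (p : T2) :
    lab (Q j) (K' j) (desc (cj (K j) (K' j) (1 / (Q j : ℝ), 0)) p) ≡
      lab (Q j) (K' j) p + 1 [ZMOD (Q j)] := by
  have hq : (Q j : ℝ) ≠ 0 := by exact_mod_cast (h.pos j).ne'
  have e : desc (K' j) (desc (cj (K j) (K' j) (1 / (Q j : ℝ), 0)) p) =
      pr (K' j (rp p.1, rp p.2) + (1 / (Q j : ℝ), 0)) := by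
    rw [desc.eq_1 (cj _ _ _), desc_pr (h.dd j).eqv', cj, (h.dd j).li]
  rw [lab, lab, e, desc]
  generalize K' j (rp p.1, rp p.2) = z
  refine (Lab_fract (Q j) (z.1 + 1 / (Q j : ℝ))).trans ?_
  rw [mul_add, mul_one_div_cancel hq, Int.floor_add_one]
  exact (Lab_fract (Q j) z.1).symm.add_right 1

theorem lab_cons (h : SeqD Q K K' G) {j : ℕ} {p : T2} (hp : p ∈ Good Q K' j) :
    lab (Q (j + 1)) (K' (j + 1)) p ≡ lab (Q j) (K' j) p [ZMOD (Q j)] := by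
  have hq : (Q j : ℝ) ≠ 0 := by exact_mod_cast (h.pos j).ne'
  have e : desc (K' j) p = desc (G j) (desc (K' (j + 1)) p) := by
    rw [desc.eq_1 (K' (j + 1)), desc_pr (h.gs j).eqv, ← Lab_inv h, desc]
  obtain ⟨h1, h2, h3⟩ := hp
  rw [lab, lab, e]
  generalize desc (K' (j + 1)) p = a at h1 h2 h3 ⊢
  rw [desc, (h.gs j).val _ _ h1 h2 h3 (rp_nonneg _) (rp_lt _)]
  refine Int.ModEq.symm ((Lab_fract (Q j) _).trans ?_)
  rw [mul_add, mul_div_cancel₀ _ hq, ← Int.cast_sub, Int.floor_add_intCast, add_sub_cancel]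

end Vale.Agent.P109
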