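import Vale.Agent.P109.Tor

namespace Vale.Agent.P109

open MeasureTheory Filter Topology

theorem lim_mp {S : ℕ → T2 → T2} {T : T2 → T2} (hc : ∀ j, Continuous (S j)) (hT : Continuous T)
    (hm : ∀ j, MeasurePreserving (S j) volume volume)
    (ht : ∀ p, Tendsto (fun j => S j p) atTop (𝓝 (T p))) : MeasurePreserving T volume volume := by
  refine ⟨hT.measurable, ext_of_forall_integral_eq_of_IsFiniteMeasure fun φ => ?_⟩
  rw [integral_map hT.measurable.aemeasurable φ.continuous.aestronglyMeasurable]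
  have h1 : Tendsto (fun j => ∫ p, φ (S j p)) atTop (𝓝 (∫ p, φ (T p))) :=
    tendsto_integral_of_dominated_convergence (fun _ => ‖φ‖)
      (fun j => (φ.continuous.comp (hc j)).aestronglyMeasurable) (integrable_const _)
      (fun j => ae_of_all _ fun p => φ.norm_coe_le_norm _)
      (ae_of_all _ fun p => (φ.continuous.tendsto _).comp (ht p))
  have h2 : ∀ j, ∫ p, φ (S j p) = ∫ p, φ p := fun j => by
    rw [← integral_map (hc j).measurable.aemeasurable φ.continuous.aestronglyMeasurable,
      (hm j).map_eq]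
  simp only [h2] at h1
  exact tendsto_nhds_unique h1 tendsto_const_nhds

theorem lim_one {f : ℕ → Pl → Pl} (hs : ∀ j, ContDiff ℝ (⊤ : ℕ∞) (f j)) (pf : ∀ j, Per (f j))
    (hm : ∀ j, MeasurePreserving (desc (f j)) volume volume)
    (hf : ∀ j, Small j ((1 / 2) ^ j) fun z => f (j + 1) z - f j z) :
    ∃ F, ContDiff ℝ (⊤ : ℕ∞) F ∧ Per F ∧ TendstoUniformly f F atTop ∧
      TendstoUniformly (fun j => desc (f j)) (desc F) atTop ∧
      MeasurePreserving (desc F) volume volume := by
  have hg : Summable fun j : ℕ => ((1 : ℝ) / 2) ^ j := summable_geometric_two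
  have c1 : ContDiff ℝ (⊤ : ℕ∞) fun z => ∑' j, (f (j + 1) z - f j z) := by
    refine contDiff_tsum_of_eventually (v := fun _ j => ((1 : ℝ) / 2) ^ j)
      (fun j => (hs (j + 1)).sub (hs j)) (fun _ _ => hg) fun k _ => ?_
    rw [Nat.cofinite_eq_atTop]
    exact (eventually_ge_atTop k).mono fun j hj z => hf j k hj z
  have u1 := tendstoUniformly_tsum_nat (f := fun j z => f (j + 1) z - f j z) hg fun j z => by
    have := hf j 0 (Nat.zero_le j) z
    rwa [norm_iteratedFDeriv_zero] at this
  have u2 : TendstoUniformly f (fun z => f 0 z + ∑' j, (f (j + 1) z - f j z)) atTop := by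
    rw [Metric.tendstoUniformly_iff] at u1 ⊢
    intro ε hε
    refine (u1 ε hε).mono fun j hj z => ?_
    have := hj z
    rw [Finset.sum_range_sub (fun j => f j z)] at this
    rwa [← add_sub_cancel (f 0 z) (f j z), dist_add_left]
  have c2 : ContDiff ℝ (⊤ : ℕ∞) fun z => f 0 z + ∑' j, (f (j + 1) z - f j z) := (hs 0).add c1
  generalize (fun z => f 0 z + ∑' j, (f (j + 1) z - f j z)) = F at u2 c2
  have p1 : Per F := fun m z => tendsto_nhds_unique (u2.tendsto_at (z + iv m)) (by
    simp only [fun j => pf j m z]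
    exact (u2.tendsto_at z).add_const _)
  have u3 : TendstoUniformly (fun j => desc (f j)) (desc F) atTop := by
    rw [Metric.tendstoUniformly_iff] at u2 ⊢
    exact fun ε hε => (u2 ε hε).mono fun j hj p => (dist_pr_le _ _).trans_lt (hj _)
  exact ⟨F, c2, p1, u2, u3, lim_mp (fun j => cont_desc (hs j).continuous (pf j).eqv)
    (cont_desc c2.continuous p1.eqv) hm u3.tendsto_at⟩

theorem lim_dd {f g : ℕ → Pl → Pl} (hd : ∀ j, DD (f j) (g j)) (pf : ∀ j, Per (f j))
    (pg : ∀ j, Per (g j)) (hf : ∀ j, Small j ((1 / 2) ^ j) fun z => f (j + 1) z - f j z)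
    (hg : ∀ j, Small j ((1 / 2) ^ j) fun z => g (j + 1) z - g j z) :
    ∃ F G, DD F G ∧ TendstoUniformly (fun j => desc (f j)) (desc F) atTop := by
  obtain ⟨F, a1, a2, a3, a4, a5⟩ := lim_one (fun j => (hd j).sm) pf (fun j => (hd j).mp) hf
  obtain ⟨G, b1, b2, b3, -, b5⟩ := lim_one (fun j => (hd j).sm') pg (fun j => (hd j).mp') hg
  refine ⟨F, G, ⟨a1, b1, a2.eqv, b2.eqv, fun z => ?_, fun z => ?_, a5, b5⟩, a4⟩
  · have := b3.tendsto_comp b1.continuous.continuousAt (a3.tendsto_at z)
    simp only [fun j => (hd j).li z] at this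
    exact tendsto_nhds_unique this tendsto_const_nhds
  · have := a3.tendsto_comp a1.continuous.continuousAt (b3.tendsto_at z)
    simp only [fun j => (hd j).ri z] at this
    exact tendsto_nhds_unique this tendsto_const_nhds

end Vale.Agent.P109
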