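import Vale.Agent.P109.Lab
import Vale.Agent.P109.Inj
import Vale.Agent.P109.Bad

namespace Vale.Agent.P109

open MeasureTheory Filter Topology

lemma Phi_dvd {q : ℕ → ℕ} (hd : ∀ n, q n ∣ q (n + 1)) {i j : ℕ} (h : i ≤ j) : q i ∣ q j := by
  induction h with
  | refl => exact dvd_rfl
  | step _ ih => exact ih.trans (hd _)

lemma Phi_chain {Q : ℕ → ℕ} {K K' G : ℕ → Pl → Pl} (h : SeqD Q K K' G) {N : ℕ} {p : T2}
    (hp : ∀ j ≥ N, p ∈ Good Q K' j) {j k : ℕ} (hj : N ≤ j) (hk : j ≤ k) :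
    lab (Q k) (K' k) p ≡ lab (Q j) (K' j) p [ZMOD (Q j)] := by
  induction hk with
  | refl => rfl
  | step hk ih =>
    exact ((lab_cons h (hp _ (hj.trans hk))).of_dvd
      (Int.natCast_dvd_natCast.mpr (Phi_dvd h.dvd hk))).trans ih

theorem exists_phi {q : ℕ → ℕ} (hd : ∀ n, q n ∣ q (n + 1)) {n : ℕ → ℕ} (hn : ∀ j, j ≤ n j)
    {K K' G : ℕ → Pl → Pl} (h : SeqD (fun j => q (n j)) K K' G) :
    ∃ Φ : T2 → ∀ i, ZMod (q i), Measurable Φ ∧ (∀ᵐ p : T2, Φ p ∈ Odo q) ∧
      (∀ᵐ p : T2, ∀ i, ∀ᶠ j in atTop, Φ p i = (lab (q (n j)) (K' j) p : ZMod (q i))) ∧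
      ∃ A : Set T2, volume Aᶜ = 0 ∧ Set.InjOn Φ A := by
  classical
  let g : ℕ → T2 → Prop := fun N p => ∀ j ≥ N, p ∈ Good (fun j => q (n j)) K' j
  have hg : ∀ N, MeasurableSet {p | g N p} := fun N => by
    simp only [g, Set.setOf_forall]
    exact MeasurableSet.iInter fun j => MeasurableSet.iInter fun _ => meas_good h j
  have hE : MeasurableSet {p | ∃ N, g N p} := by
    rw [Set.setOf_exists]
    exact MeasurableSet.iUnion hg
  have hex : ∀ p, ∃ N, (∃ M, g M p) → g N p := fun p => by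
    by_cases hp : ∃ M, g M p
    · obtain ⟨M, hM⟩ := hp
      exact ⟨M, fun _ => hM⟩
    · exact ⟨0, fun h' => absurd h' hp⟩
  have hae : ∀ᵐ p : T2, ∃ N, g N p := by
    filter_upwards [good_ae h] with p hp using eventually_atTop.mp hp
  let Φ : T2 → ∀ i, ZMod (q i) := fun p i =>
    (lab (q (n (max (Nat.find (hex p)) i))) (K' (max (Nat.find (hex p)) i)) p : ZMod (q i))
  have key : ∀ p, (∃ N, g N p) → ∀ i j, max (Nat.find (hex p)) i ≤ j →
      Φ p i = (lab (q (n j)) (K' j) p : ZMod (q i)) := by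
    intro p hp i j hj
    refine (ZMod.intCast_eq_intCast_iff _ _ _).mpr ?_
    exact ((Phi_chain h (Nat.find_spec (hex p) hp) (le_max_left _ _) hj).of_dvd
      (Int.natCast_dvd_natCast.mpr (Phi_dvd hd ((le_max_right _ _).trans (hn _))))).symm
  refine ⟨Φ, measurable_pi_lambda _ fun i => ?_, ?_, ?_, {p | ∃ N, g N p}, hae, ?_⟩
  · refine Measurable.find (p := fun N p => (∃ M, g M p) → g N p)
      (f := fun N p => (lab (q (n (max N i))) (K' (max N i)) p : ZMod (q i)))
      (fun N => ?_) (fun N => ?_) hex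
    · exact (measurable_from_top (f := fun z : ℤ => (z : ZMod (q i)))).comp (meas_lab h _)
    · have : {p | (∃ M, g M p) → g N p} = {p | ∃ M, g M p}ᶜ ∪ {p | g N p} := by
        ext p
        simp only [Set.mem_setOf_eq, Set.mem_union, Set.mem_compl_iff]
        tauto
      rw [this]
      exact hE.compl.union (hg N)
  · filter_upwards [hae] with p hp i
    rw [key p hp (i + 1) _ le_rfl, key p hp i _ (max_le_max_left _ (Nat.le_succ i))]
    exact ZMod.cast_intCast (hd i) _
  · filter_upwards [hae] with p hp i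
    exact eventually_atTop.mpr ⟨_, key p hp i⟩
  · intro p hp p' hp' he
    have a1 : g (max (Nat.find (hex p)) (Nat.find (hex p'))) p := fun j hj =>
      Nat.find_spec (hex p) hp j ((le_max_left _ _).trans hj)
    have a2 : g (max (Nat.find (hex p)) (Nat.find (hex p'))) p' := fun j hj =>
      Nat.find_spec (hex p') hp' j ((le_max_right _ _).trans hj)
    refine lab_inj h a1 a2 fun j hj => ?_
    have e := congrFun he (n j)
    rw [key p hp (n j) (n j) (max_le ((le_max_left _ _).trans (hj.trans (hn j))) le_rfl),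
      key p' hp' (n j) (n j) (max_le ((le_max_right _ _).trans (hj.trans (hn j))) le_rfl),
      ZMod.intCast_eq_intCast_iff] at e
    exact ((Phi_chain h a1 hj (hn j)).symm.trans e).trans (Phi_chain h a2 hj (hn j))

end Vale.Agent.P109
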