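import Vale.Agent.P109.Gmap
import Vale.Agent.P109.Close

namespace Vale.Agent.P109

open MeasureTheory Filter Topology

theorem seq_dvd {q : ℕ → ℕ} (hd : ∀ n, q n ∣ q (n + 1)) {a b : ℕ} (h : a ≤ b) : q a ∣ q b := by
  induction h with
  | refl => exact dvd_rfl
  | step _ ih => exact ih.trans (hd _)

theorem seq_step {q : ℕ → ℕ} (h0 : ∀ n, 0 < q n) (hd : ∀ n, q n ∣ q (n + 1))
    (hu : ∀ B, ∃ n, B < q n) (j m : ℕ) {K K' : Pl → Pl} (h : DD K K') :
    ∃ m', m < m' ∧ ∃ G G', DD G G' ∧ GSpec (q m) (q m') ((1 / 2) ^ j) G ∧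
      (Small j ((1 / 2) ^ j) fun z => cj K K' (1 / (q m : ℝ), 1 / (q m' : ℝ)) z -
        cj K K' (1 / (q m : ℝ), 0) z) ∧
      (Small j ((1 / 2) ^ j) fun z => cj K K' (-(1 / (q m : ℝ), 1 / (q m' : ℝ))) z -
        cj K K' (-(1 / (q m : ℝ), 0)) z) ∧
      ∀ a b : T2, dist a b ≤ 2 * q m / q m' → dist (desc K a) (desc K b) ≤ (1 / 2) ^ j := by
  have hδ : (0 : ℝ) < (1 / 2) ^ j := by positivity
  have hq : Tendsto q atTop atTop := by
    refine tendsto_atTop_atTop.2 fun B => ?_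
    obtain ⟨n, hn⟩ := hu B
    exact ⟨n, fun a ha => hn.le.trans (Nat.le_of_dvd (h0 a) (seq_dvd hd ha))⟩
  have hr : Tendsto (fun a => (q a : ℝ)) atTop atTop := tendsto_natCast_atTop_atTop.comp hq
  have h1 : Tendsto (fun a => 1 / (q a : ℝ)) atTop (𝓝 0) := tendsto_const_nhds.div_atTop hr
  have h2 : Tendsto (fun a => -(1 / (q a : ℝ))) atTop (𝓝 0) := by simpa using h1.neg
  have h3 : Tendsto (fun a => 2 * (q m : ℝ) / (q a : ℝ)) atTop (𝓝 0) :=
    tendsto_const_nhds.div_atTop hr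
  have huc := CompactSpace.uniformContinuous_of_continuous (cont_desc h.sm.continuous h.eqv)
  obtain ⟨η, hη, hK⟩ := Metric.uniformContinuous_iff.1 huc _ hδ
  obtain ⟨m', e0, e1, e2, e3⟩ := ((eventually_gt_atTop m).and
    ((h1.eventually (close h (1 / (q m : ℝ), 0) j hδ)).and
      ((h2.eventually (close h (-(1 / (q m : ℝ), 0)) j hδ)).and
        (h3.eventually (gt_mem_nhds hη))))).exists
  obtain ⟨G, G', hG, hs⟩ := exists_G (h0 m) (h0 m') (seq_dvd hd e0.le) hδ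
  refine ⟨m', e0, G, G', hG, hs, ?_, ?_, fun a b hab => (hK (hab.trans_lt e3)).le⟩
  · simpa using e1
  · simpa using e2

theorem exists_seq {q : ℕ → ℕ} (h0 : ∀ n, 0 < q n) (hd : ∀ n, q n ∣ q (n + 1))
    (hu : ∀ B, ∃ n, B < q n) : ∃ n : ℕ → ℕ, (∀ j, j ≤ n j) ∧
      ∃ K K' G, SeqD (fun j => q (n j)) K K' G := by
  have key := fun (j : ℕ) (s : {s : ℕ × (Pl → Pl) × (Pl → Pl) // DD s.2.1 s.2.2}) =>
    seq_step h0 hd hu j s.1.1 s.2
  choose m hm G G' hG hs h1 h2 h3 using key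
  let s : ℕ → {s : ℕ × (Pl → Pl) × (Pl → Pl) // DD s.2.1 s.2.2} := fun j =>
    Nat.rec ⟨(0, id, id), dd_id⟩
      (fun j s => ⟨(m j s, s.1.2.1 ∘ G j s, G' j s ∘ s.1.2.2), s.2.comp (hG j s)⟩) j
  have hn : ∀ j, (s (j + 1)).1.1 = m j (s j) := fun j => rfl
  refine ⟨fun j => (s j).1.1, fun j => ?_, fun j => (s j).1.2.1, fun j => (s j).1.2.2,
    fun j => G j (s j), fun j => h0 _, fun j => seq_dvd hd (hm j (s j)).le, fun j => (s j).2,
    fun j => rfl, fun j => hs j (s j), fun j => h1 j (s j), fun j => h2 j (s j),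
    fun j => h3 j (s j)⟩
  induction j with
  | zero => exact Nat.zero_le _
  | succ j ih =>
    show j + 1 ≤ (s (j + 1)).1.1
    rw [hn]
    exact Nat.succ_le_of_lt (ih.trans_lt (hm j (s j)))

end Vale.Agent.P109
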