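import Vale.Agent.P109.Tor

namespace Vale.Agent.P109

open MeasureTheory Filter Topology

theorem shear_int {c : ℝ → ℝ} {k : ℤ} (hk : ∀ t, c (t + 1) = c t + k) (m : ℤ) (t : ℝ) :
    c (t + m) = c t + k * m := by
  induction m using Int.induction_on generalizing t with
  | zero => simp
  | succ n ih =>
    have h1 := hk (t + (n : ℤ))
    have h2 := ih t
    push_cast at h1 h2 ⊢
    rw [← add_assoc, h1, h2]; ring
  | pred n ih =>
    have h1 := hk (t + (-(n : ℝ) - 1))
    have h2 := ih t
    push_cast at h1 h2 ⊢
    have h3 : t + (-(n : ℝ) - 1) + 1 = t + -(n : ℝ) := by ring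
    rw [h3, h2] at h1
    linarith

theorem shear_mp (d : UnitAddCircle → UnitAddCircle) (hd : Measurable d) :
    MeasurePreserving (fun p : T2 => (p.1, p.2 + d p.1)) volume volume := by
  rw [Measure.volume_eq_prod]
  refine MeasurePreserving.skew_product (f := id) (g := fun x y => y + d x)
    (MeasurePreserving.id _) ?_ ?_
  · exact measurable_snd.add (hd.comp measurable_fst)
  · exact Eventually.of_forall fun x => (measurePreserving_add_right volume (d x)).map_eq

theorem shear_swap : MeasurePreserving (Prod.swap : T2 → T2) volume volume := by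
  rw [Measure.volume_eq_prod]
  exact Measure.measurePreserving_swap

theorem dd_shear {c : ℝ → ℝ} (hc : ContDiff ℝ (⊤ : ℕ∞) c) {k : ℤ} (hk : ∀ t, c (t + 1) = c t + k) :
    DD (fun z => (z.2 + c z.1, z.1)) (fun z => (z.2, z.1 - c z.2)) := by
  have hm : Measurable fun x : UnitAddCircle => ((c (rp x) : ℝ) : UnitAddCircle) :=
    AddCircle.measurable_mk'.comp (hc.continuous.measurable.comp meas_rp)
  refine ⟨?_, ?_, ?_, ?_, ?_, ?_, ?_, ?_⟩
  · exact (contDiff_snd.add (hc.comp contDiff_fst)).prodMk contDiff_fst
  · exact contDiff_snd.prodMk (contDiff_fst.sub (hc.comp contDiff_snd))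
  · intro m
    refine ⟨(m.2 + k * m.1, m.1), fun z => ?_⟩
    simp only [iv, Prod.fst_add, Prod.snd_add, shear_int hk, Prod.mk_add_mk, Prod.mk.injEq]
    push_cast
    exact ⟨by ring, trivial⟩
  · intro m
    refine ⟨(m.2, m.1 - k * m.2), fun z => ?_⟩
    simp only [iv, Prod.fst_add, Prod.snd_add, shear_int hk, Prod.mk_add_mk, Prod.mk.injEq]
    push_cast
    exact ⟨trivial, by ring⟩
  · intro z; simp
  · intro z; simp
  · have := shear_swap.comp (shear_mp _ hm)
    convert this using 1
    funext p
    simp [desc, pr, coe_rp]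
  · have := (shear_mp _ hm.neg).comp shear_swap
    convert this using 1
    funext p
    simp [desc, pr, coe_rp, sub_eq_add_neg]

end Vale.Agent.P109
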