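import Mathlib

/-! Statement vocabulary for P109: the torus, smooth maps of the torus, measure isomorphism. -/

namespace Vale.Agent.P109

open MeasureTheory

/-- the torus `ℝ² / ℤ²` -/
abbrev T2 := UnitAddCircle × UnitAddCircle

/-- the covering projection `ℝ² → ℝ² / ℤ²` -/
def pr (z : ℝ × ℝ) : T2 := ((z.1 : UnitAddCircle), (z.2 : UnitAddCircle))

/-- a self-map of the torus is `C^∞` when it lifts to a `C^∞` map of the plane -/
def SmoothT (S : T2 → T2) : Prop :=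
  ∃ f : ℝ × ℝ → ℝ × ℝ, ContDiff ℝ (⊤ : ℕ∞) f ∧ ∀ z, S (pr z) = pr (f z)

/-- `(X, μ, T)` and `(Y, ν, S)` are isomorphic: `F` is a bijection between invariant conull
measurable sets, measurable with measurable inverse `G`, carries `μ` to `ν` and `T` to `S` -/
def IsoMod {X Y : Type} [MeasurableSpace X] [MeasurableSpace Y] (μ : Measure X) (T : X → X)
    (ν : Measure Y) (S : Y → Y) : Prop :=
  ∃ (X₀ : Set X) (Y₀ : Set Y) (F : X → Y) (G : Y → X), MeasurableSet X₀ ∧ MeasurableSet Y₀ ∧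
    μ X₀ᶜ = 0 ∧ ν Y₀ᶜ = 0 ∧ T ⁻¹' X₀ = X₀ ∧ S ⁻¹' Y₀ = Y₀ ∧ Measurable F ∧ Measurable G ∧
    Set.BijOn F X₀ Y₀ ∧ Set.InvOn G F X₀ Y₀ ∧ μ.map F = ν ∧ ∀ x ∈ X₀, F (T x) = S (F x)

/-- the inverse limit of the cyclic groups `ℤ / q n`, inside their product -/
def Odo (q : ℕ → ℕ) : Set (∀ n, ZMod (q n)) :=
  {x | ∀ n, (ZMod.cast (x (n + 1)) : ZMod (q n)) = x n}

/-- an invariant probability measure of the adding machine `x ↦ x + 1` on the inverse limit -/
structure OdoMeasure (q : ℕ → ℕ) (μ : Measure (∀ n, ZMod (q n))) : Prop where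
  prob : IsProbabilityMeasure μ
  supp : μ (Odo q)ᶜ = 0
  inv : MeasurePreserving (fun x => x + 1) μ μ

end Vale.Agent.P109
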