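import Vale.Agent.P109.Defs

namespace Vale.Agent.P109

open MeasureTheory Filter Topology

theorem rp_nonneg (x : UnitAddCircle) : 0 ≤ rp x := (AddCircle.equivIco 1 0 x).2.1

theorem rp_lt (x : UnitAddCircle) : rp x < 1 :=
  (AddCircle.equivIco 1 0 x).2.2.trans_eq (zero_add 1)

theorem coe_rp (x : UnitAddCircle) : ((rp x : ℝ) : UnitAddCircle) = x :=
  (AddCircle.equivIco 1 0).symm_apply_apply x

theorem rp_coe (t : ℝ) : rp (t : UnitAddCircle) = Int.fract t := by
  have := AddCircle.coe_equivIco_mk_apply (p := (1 : ℝ)) t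
  rwa [div_one, mul_one] at this

theorem meas_rp : Measurable rp :=
  measurable_subtype_coe.comp (AddCircle.measurableEquivIco 1 0).measurable

theorem pr_rp (p : T2) : pr (rp p.1, rp p.2) = p := Prod.ext (coe_rp _) (coe_rp _)

theorem tor_eq {s t : ℝ} : (s : UnitAddCircle) = t ↔ ∃ m : ℤ, t = s + m := by
  rw [eq_comm, ← sub_eq_zero, ← AddCircle.coe_sub, AddCircle.coe_eq_zero_iff]
  simp only [zsmul_eq_mul, mul_one]
  exact exists_congr fun m => ⟨fun h => by linarith, fun h => by linarith⟩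

theorem pr_eq_iff {z w : Pl} : pr z = pr w ↔ ∃ m, w = z + iv m := by
  constructor
  · intro h
    obtain ⟨a, ha⟩ := tor_eq.1 (congrArg Prod.fst h)
    obtain ⟨b, hb⟩ := tor_eq.1 (congrArg Prod.snd h)
    exact ⟨(a, b), Prod.ext ha hb⟩
  · rintro ⟨m, rfl⟩
    exact Prod.ext (tor_eq.2 ⟨m.1, rfl⟩) (tor_eq.2 ⟨m.2, rfl⟩)

theorem tor_dist (s t : ℝ) : dist (s : UnitAddCircle) t ≤ dist s t := by
  rw [dist_eq_norm, dist_eq_norm, ← AddCircle.coe_sub]
  exact QuotientAddGroup.norm_mk_le_norm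

theorem dist_pr_le (z w : Pl) : dist (pr z) (pr w) ≤ dist z w := by
  rw [Prod.dist_eq, Prod.dist_eq]
  exact max_le_max (tor_dist _ _) (tor_dist _ _)

theorem Per.eqv {f : Pl → Pl} (h : Per f) : Eqv f := fun m => ⟨m, h m⟩

theorem Eqv.comp {K G : Pl → Pl} (h : Eqv K) (h' : Eqv G) : Eqv (K ∘ G) := by
  intro m
  obtain ⟨m', hm'⟩ := h' m
  obtain ⟨m'', hm''⟩ := h m'
  exact ⟨m'', fun z => by simp only [Function.comp, hm', hm'']⟩

theorem tor_pr {K : Pl → Pl} (h : Eqv K) {z w : Pl} (e : pr z = pr w) : pr (K z) = pr (K w) := by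
  obtain ⟨m, rfl⟩ := pr_eq_iff.1 e
  obtain ⟨m', hm'⟩ := h m
  exact pr_eq_iff.2 ⟨m', hm' z⟩

theorem desc_pr {K : Pl → Pl} (h : Eqv K) (z : Pl) : desc K (pr z) = pr (K z) :=
  tor_pr h (pr_rp _)

theorem tor_quot : IsOpenQuotientMap pr :=
  (QuotientAddGroup.isOpenQuotientMap_mk (N := AddSubgroup.zmultiples (1 : ℝ))).prodMap
    (QuotientAddGroup.isOpenQuotientMap_mk (N := AddSubgroup.zmultiples (1 : ℝ)))

theorem cont_desc {K : Pl → Pl} (hc : Continuous K) (h : Eqv K) : Continuous (desc K) := by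
  rw [← tor_quot.continuous_comp_iff]
  have : desc K ∘ pr = pr ∘ K := funext (desc_pr h)
  rw [this]
  exact tor_quot.continuous.comp hc

theorem desc_comp {K : Pl → Pl} (h : Eqv K) (G : Pl → Pl) :
    desc (K ∘ G) = desc K ∘ desc G := funext fun _ => (desc_pr h _).symm

theorem DD.symm {K K' : Pl → Pl} (h : DD K K') : DD K' K :=
  ⟨h.sm', h.sm, h.eqv', h.eqv, h.ri, h.li, h.mp', h.mp⟩

theorem DD.desc_li {K K' : Pl → Pl} (h : DD K K') (p : T2) : desc K' (desc K p) = p := by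
  change desc K' (pr _) = p
  rw [desc_pr h.eqv', h.li, pr_rp]

theorem DD.desc_ri {K K' : Pl → Pl} (h : DD K K') (p : T2) : desc K (desc K' p) = p :=
  h.symm.desc_li p

theorem DD.comp {K K' G G' : Pl → Pl} (h : DD K K') (h' : DD G G') : DD (K ∘ G) (G' ∘ K') where
  sm := h.sm.comp h'.sm
  sm' := h'.sm'.comp h.sm'
  eqv := h.eqv.comp h'.eqv
  eqv' := h'.eqv'.comp h.eqv'
  li z := by simp only [Function.comp, h.li, h'.li]
  ri z := by simp only [Function.comp, h.ri, h'.ri]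
  mp := desc_comp h.eqv G ▸ h.mp.comp h'.mp
  mp' := desc_comp h'.eqv' K' ▸ h'.mp'.comp h.mp'

theorem dd_id : DD id id := by
  have e : desc id = id := funext pr_rp
  have q : Eqv id := fun m => ⟨m, fun _ => rfl⟩
  exact ⟨contDiff_id, contDiff_id, q, q, fun _ => rfl, fun _ => rfl, e ▸ MeasurePreserving.id _,
    e ▸ MeasurePreserving.id _⟩

theorem tor_tr (w : Pl) : MeasurePreserving (desc fun z => z + w) volume volume := by
  have e : (desc fun z => z + w) = Prod.map (· + (w.1 : UnitAddCircle)) (· + (w.2 : UnitAddCircle)) := by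
    funext p
    refine Prod.ext ?_ ?_
    · change ((rp p.1 + w.1 : ℝ) : UnitAddCircle) = p.1 + w.1
      rw [AddCircle.coe_add, coe_rp]
    · change ((rp p.2 + w.2 : ℝ) : UnitAddCircle) = p.2 + w.2
      rw [AddCircle.coe_add, coe_rp]
  rw [e]
  exact (measurePreserving_add_right volume _).prod (measurePreserving_add_right volume _)

theorem dd_tr (w : Pl) : DD (fun z => z + w) (fun z => z + -w) := by
  have q : ∀ w : Pl, Eqv fun z => z + w := fun w m => ⟨m, fun z => add_right_comm _ _ _⟩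
  exact ⟨contDiff_id.add contDiff_const, contDiff_id.add contDiff_const, q _, q _,
    fun z => by simp, fun z => by simp, tor_tr _, tor_tr _⟩

theorem per_cj {K K' : Pl → Pl} (h : DD K K') (w : Pl) : Per (cj K K' w) := by
  intro m z
  obtain ⟨m', hm'⟩ := h.eqv' m
  obtain ⟨m'', hm''⟩ := h.eqv m'
  have e : iv m'' = iv m := by
    have := h.ri (z + iv m)
    rw [hm', hm'', h.ri] at this
    exact add_left_cancel this
  unfold cj
  rw [hm', add_right_comm, hm'', e]

theorem dd_cj {K K' : Pl → Pl} (h : DD K K') (w : Pl) : DD (cj K K' w) (cj K K' (-w)) :=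
  (h.comp (dd_tr w)).comp h.symm

end Vale.Agent.P109
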