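import Vale.Agent.P109.Defs

namespace Vale.Agent.P109

open MeasureTheory Filter Topology

theorem uniq_meas {q : ℕ → ℕ} (n : ℕ) (a : ZMod (q n)) :
    MeasurableSet {x : ∀ i, ZMod (q i) | x n = a} :=
  (measurable_pi_apply (X := fun i => ZMod (q i)) n) (measurableSet_singleton a)

theorem uniq_const {q : ℕ → ℕ} (h0 : ∀ n, 0 < q n) {μ : Measure (∀ n, ZMod (q n))}
    (h : OdoMeasure q μ) (n : ℕ) (a : ZMod (q n)) : μ {x | x n = a} = (q n : ENNReal)⁻¹ := by
  have : NeZero (q n) := ⟨(h0 n).ne'⟩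
  have := h.prob
  have h1 : ∀ k : ℕ, μ {x | x n = (k : ZMod (q n))} = μ {x | x n = 0} := by
    intro k
    induction k with
    | zero => simp
    | succ k ih =>
      rw [← ih, ← h.inv.measure_preimage (uniq_meas n _).nullMeasurableSet]
      congr 1
      ext x
      simp
  have h2 : ∀ b : ZMod (q n), μ {x | x n = b} = μ {x | x n = 0} := fun b => by
    rw [← h1 b.val, ZMod.natCast_zmod_val]
  have h3 : ∑ b : ZMod (q n), μ {x | x n = b} = 1 := by
    rw [← measure_univ (μ := μ), ← tsum_fintype (L := SummationFilter.unconditional _),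
      ← measure_iUnion (fun b c hbc => ?_) (uniq_meas n)]
    · congr 1
      ext x
      simp
    · exact Set.disjoint_left.2 fun x hb hc => hbc (hb.symm.trans hc)
  simp only [h2, Finset.sum_const, Finset.card_univ, ZMod.card, nsmul_eq_mul] at h3
  rw [h2]
  exact ENNReal.eq_inv_of_mul_eq_one_left (by rw [mul_comm]; exact h3)

theorem uniq_val {q : ℕ → ℕ} (h0 : ∀ n, 0 < q n) (hd : ∀ n, q n ∣ q (n + 1))
    {x : ∀ n, ZMod (q n)} (hx : x ∈ Odo q) {i n : ℕ} (h : i ≤ n) :
    x i = ((x n).val : ZMod (q i)) ∧ q i ∣ q n := by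
  induction h with
  | refl =>
    have : NeZero (q i) := ⟨(h0 i).ne'⟩
    exact ⟨(ZMod.natCast_zmod_val _).symm, dvd_rfl⟩
  | @step m _ ih =>
    have : NeZero (q (m + 1)) := ⟨(h0 _).ne'⟩
    refine ⟨?_, ih.2.trans (hd m)⟩
    rw [ih.1, ← hx m, ← ZMod.natCast_val, ZMod.val_natCast, ZMod.natCast_eq_natCast_iff]
    exact (Nat.mod_modEq _ _).of_dvd ih.2

theorem odo_uniq {q : ℕ → ℕ} (h0 : ∀ n, 0 < q n) (hd : ∀ n, q n ∣ q (n + 1))
    {μ μ' : Measure (∀ n, ZMod (q n))} (h : OdoMeasure q μ) (h' : OdoMeasure q μ') :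
    μ = μ' := by
  have := h.prob
  have := h'.prob
  have key : ∀ {ν : Measure (∀ n, ZMod (q n))}, OdoMeasure q ν → ∀ (I : Finset ℕ),
      ν.map I.restrict = (ν.map fun x => x (I.sup id)).map
        fun (a : ZMod (q (I.sup id))) (i : I) => (a.val : ZMod (q i)) := by
    intro ν hν I
    rw [Measure.map_map measurable_from_top (measurable_pi_apply _)]
    refine Measure.map_congr ?_
    have hs : ∀ᵐ x ∂ν, x ∈ Odo q := hν.supp
    filter_upwards [hs] with x hx
    funext i
    exact (uniq_val h0 hd hx (Finset.le_sup (f := id) i.2)).1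
  have h1 : ∀ n, (μ.map fun x => x n) = μ'.map fun x => x n := by
    intro n
    have : NeZero (q n) := ⟨(h0 n).ne'⟩
    refine Measure.ext_of_singleton fun a => ?_
    rw [Measure.map_apply (measurable_pi_apply n) (measurableSet_singleton a),
      Measure.map_apply (measurable_pi_apply n) (measurableSet_singleton a)]
    exact (uniq_const h0 h n a).trans (uniq_const h0 h' n a).symm
  refine IsProjectiveLimit.unique (P := fun I : Finset ℕ => μ.map I.restrict) (fun I => rfl)
    fun I => ?_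
  show μ'.map I.restrict = μ.map I.restrict
  rw [key h', key h, h1]

end Vale.Agent.P109
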